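import Vale.Agent.P065.R2.H841.Pad
import Vale.Agent.P065.Bdl.B1

/-!
# P065: lower `k`-edges give `(k + 1)`-sets (helper841)
-/

set_option autoImplicit false

namespace Vale.Agent.P065.R2.H841

open Finset Vale.Agent.P065.UB Vale.Agent.P065 Vale.Agent.P065.U.H792.Trans

/-- every `k`-edge gives its own `(k + 1)`-set -/
theorem ed_le_kSet {P : Finset Pt} (hP : Good P) (k : ℕ) : #(Ed P k) ≤ kSetNumber P (k + 1) := by
  classical
  have himg : (univ : Finset {x // x ∈ P}).image Subtype.val = P := by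
    ext x
    simp
  have hU : #(Ed P k) ≤
      #(univ.filter fun x : {x // x ∈ P} × {x // x ∈ P} => (x.1.1, x.2.1) ∈ Ed P k) := by
    apply Finset.card_le_card_of_surjOn (fun x => (x.1.1, x.2.1))
    intro e he
    obtain ⟨h1, h2, h3, h4⟩ := mem_Ed.1 (mem_coe.1 he)
    exact ⟨(⟨e.1, h1⟩, ⟨e.2, h2⟩), mem_coe.2 (mem_filter.2 ⟨mem_univ _, mem_coe.1 he⟩), rfl⟩
  have hmain := Vale.Agent.P065.Pt.card_le_kSetNumber (ι := {x // x ∈ P}) Subtype.val Subtype.val_injective
    (univ.filter fun x : {x // x ∈ P} × {x // x ∈ P} => (x.1.1, x.2.1) ∈ Ed P k) (k + 1)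
    (fun x hx => (mem_Ed.1 (mem_filter.1 hx).2).2.2.1) ?_ ?_
  · rw [himg] at hmain
    exact hU.trans hmain
  · intro x hx c hc1 hc2
    have hx' := (mem_filter.1 hx).2
    obtain ⟨h1, h2, h3, h4⟩ := mem_Ed.1 hx'
    simp only at h1 h2 h3
    rw [orient_eq h3.ne]
    have hne : x.1.1 ≠ x.2.1 := fun h => by rw [h] at h3; exact lt_irrefl _ h3
    have h5 := hP.gen (sl x.1.1 x.2.1) x.1.1 h1 x.2.1 h2 c.1 c.2 hne
      (fun h => hc1 (Subtype.ext h.symm)) (fun h => hc2 (Subtype.ext h.symm))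
      (edge_ht (x.1.1, x.2.1) h3).symm
    intro h6
    rcases mul_eq_zero.1 h6 with h | h
    · exact absurd (sub_eq_zero.1 h) h3.ne'
    · exact h5 (by linarith)
  · intro x hx
    have hx' := (mem_filter.1 hx).2
    obtain ⟨h1, h2, h3, h4⟩ := mem_Ed.1 hx'
    simp only at h1 h2 h3 h4
    unfold g0 at h4
    have hpos : 0 < x.2.1.1 - x.1.1.1 := by linarith
    have h5 : (univ.filter fun c : {x // x ∈ P} => orient x.1.1 x.2.1 c.1 < 0).card =
        #{v ∈ P | ht (sl x.1.1 x.2.1) v < ht (sl x.1.1 x.2.1) x.1.1} := by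
      rw [← Finset.card_image_of_injective _ Subtype.val_injective]
      congr 1
      ext v
      simp only [mem_image, mem_filter, mem_univ, true_and]
      constructor
      · rintro ⟨c, hc, rfl⟩
        refine ⟨c.2, ?_⟩
        rw [orient_eq h3.ne] at hc
        by_contra h6
        have : 0 ≤ (x.2.1.1 - x.1.1.1) * (ht (sl x.1.1 x.2.1) c.1 - ht (sl x.1.1 x.2.1) x.1.1) :=
          mul_nonneg hpos.le (by linarith)
        linarith
      · rintro ⟨hv, h6⟩
        refine ⟨⟨v, hv⟩, ?_, rfl⟩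
        rw [orient_eq h3.ne]
        exact mul_neg_of_pos_of_neg hpos (by linarith)
    rw [h5, h4]

end Vale.Agent.P065.R2.H841
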