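import Mathlib

/-!
# P065: a superadditive sequence with pieces (helper841)
-/

set_option autoImplicit false

namespace Vale.Agent.P065.R2.H841

/-- `L` superadditive and `M L(N) ≤ (N + M) L(M + c)`: then `γ (n - c) ≤ L(n) ≤ γ n` -/
theorem fek (L : ℕ → ℕ) (c : ℕ) (hsup : ∀ m n, L m + L n ≤ L (m + n))
    (hp : ∀ M N, 1 ≤ M → M * L N ≤ (N + M) * L (M + c)) :
    ∃ γ : ℝ, (∀ n, (L n : ℝ) ≤ γ * n) ∧ ∀ n : ℕ, γ * ((n : ℝ) - c) ≤ L n := by
  have h0 : L 0 = 0 := by
    have := hsup 0 0
    simp only [add_zero] at this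
    omega
  have hmul : ∀ t n, t * L n ≤ L (t * n) := by
    intro t n
    induction t with
    | zero => simp
    | succ t ih =>
      have h1 := hsup (t * n) n
      have h2 : (t + 1) * n = t * n + n := by ring
      rw [h2]
      have h3 : (t + 1) * L n = t * L n + L n := by ring
      omega
  have key : ∀ M N, 1 ≤ M → M * L N ≤ N * L (M + c) := by
    intro M N hM
    by_contra hcon
    push Not at hcon
    set t := M * L (M + c) + 1 with ht
    have h1 : M * (t * L N) ≤ M * L (t * N) := Nat.mul_le_mul_left _ (hmul t N)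
    have h2 := hp M (t * N) hM
    have h3 : t * (N * L (M + c) + 1) ≤ t * (M * L N) := Nat.mul_le_mul_left _ hcon
    have h4 : t * (M * L N) = M * (t * L N) := by ring
    have h5 : (t * N + M) * L (M + c) = t * (N * L (M + c)) + M * L (M + c) := by ring
    have h6 : t * (N * L (M + c) + 1) = t * (N * L (M + c)) + t := by ring
    omega
  have hbdd : BddAbove (Set.range fun n : ℕ => (L (n + 1) : ℝ) / ((n : ℝ) + 1)) := by
    refine ⟨L (1 + c), ?_⟩
    rintro _ ⟨n, rfl⟩
    have h1 := key 1 (n + 1) le_rfl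
    rw [one_mul] at h1
    have h2 : (L (n + 1) : ℝ) ≤ ((n + 1 : ℕ) : ℝ) * L (1 + c) := by exact_mod_cast h1
    simp only
    rw [div_le_iff₀ (by positivity)]
    push_cast at h2
    linarith
  refine ⟨⨆ n : ℕ, (L (n + 1) : ℝ) / ((n : ℝ) + 1), ?_, ?_⟩
  · intro n
    rcases Nat.eq_zero_or_pos n with rfl | hn
    · rw [h0]
      simp
    · obtain ⟨m, rfl⟩ : ∃ m, n = m + 1 := ⟨n - 1, by omega⟩
      have h1 := le_ciSup hbdd m
      rw [div_le_iff₀ (by positivity)] at h1
      push_cast
      exact h1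
  · intro n
    rcases Nat.lt_or_ge c n with h | h
    · obtain ⟨M, rfl⟩ : ∃ M, n = M + c := ⟨n - c, by omega⟩
      have hM : 1 ≤ M := by omega
      have hM0 : (0 : ℝ) < M := by exact_mod_cast hM
      have h1 : (⨆ n : ℕ, (L (n + 1) : ℝ) / ((n : ℝ) + 1)) ≤ (L (M + c) : ℝ) / M := by
        apply ciSup_le
        intro m
        have h2 := key M (m + 1) hM
        have h3 : (M : ℝ) * L (m + 1) ≤ ((m + 1 : ℕ) : ℝ) * L (M + c) := by exact_mod_cast h2
        rw [div_le_div_iff₀ (by positivity) hM0]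
        push_cast at h3
        linarith
      rw [le_div_iff₀ hM0] at h1
      push_cast
      rw [add_sub_cancel_right]
      exact h1
    · have h1 : (0 : ℝ) ≤ ⨆ n : ℕ, (L (n + 1) : ℝ) / ((n : ℝ) + 1) := by
        refine le_trans ?_ (le_ciSup hbdd 0)
        positivity
      have h2 : (n : ℝ) - c ≤ 0 := by
        have : (n : ℝ) ≤ c := by exact_mod_cast h
        linarith
      have h3 : (0 : ℝ) ≤ (L n : ℝ) := Nat.cast_nonneg _
      exact (mul_nonpos_of_nonneg_of_nonpos h1 h2).trans h3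

end Vale.Agent.P065.R2.H841
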