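import Vale.Agent.P065.R2.H841.Lim.Mono

/-!
# P065: `|e_k(n) - γ_k n| ≤ 5 k γ_k`, `1 = γ_1 ≤ γ_2 ≤ ..` (helper841)
-/

set_option autoImplicit false

namespace Vale.Agent.P065.R2.H841

open Finset Vale.Agent.P065.UB Vale.Agent.P065 Vale.Agent.P065.U.H792.Trans

/-- there are at most `n` sets with one point -/
theorem emax_one_le (n : ℕ) : emax 1 n ≤ n := by
  classical
  have hne : {m | ∃ P : Finset (ℝ × ℝ), P.card = n ∧ GenPos P ∧
      kSetNumber P 1 = m}.Nonempty :=
    ⟨_, (range n).image par, by rw [card_image_of_injective _ par_inj, card_range],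
      genPos_of_good (good_par _), rfl⟩
  obtain ⟨P, hP, hg, hm⟩ := Nat.sSup_mem hne (bddAbove_emax 1 n)
  have h1 : kSetNumber P 1 ≤ #(powersetCard 1 P) := by
    unfold kSetNumber
    apply card_le_card
    intro S hS
    obtain ⟨h2, h3⟩ := mem_filter.1 hS
    exact mem_powersetCard.2 ⟨mem_powerset.1 h2, h3.2.1⟩
  rw [card_powersetCard, Nat.choose_one_right, hP] at h1
  have h2 : emax 1 n = kSetNumber P 1 := hm.symm
  omega

/-- **the linear law for `k`-sets** -/
theorem linear_law2 : ∃ γ : ℕ → ℝ, γ 1 = 1 ∧ (∀ m k : ℕ, 1 ≤ m → m ≤ k → γ m ≤ γ k) ∧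
    ∀ k : ℕ, 1 ≤ k → (∀ n : ℕ, k < n → |(emax k n : ℝ) - γ k * n| ≤ 5 * k * γ k) ∧
      (hmax (2 * k) : ℝ) ≤ 8 * k * γ k ∧ k * γ k ≤ 52 * hmax (2 * k) := by
  classical
  choose g hg1 hg2 using Lk_gamma
  have hg0 : ∀ k, 0 ≤ g k := by
    intro k
    have h1 := hg1 k 1
    have h2 : (0 : ℝ) ≤ (Lk k 1 : ℝ) := Nat.cast_nonneg _
    push_cast at h1
    linarith
  have hmono1 : ∀ k, g k ≤ g (k + 1) := by
    intro k
    apply arch (n0 := 0) (c := g (k + 1) + g k * ((2 * k + 1 : ℕ) : ℝ))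
    intro n _
    have h1 := hg2 k n
    have h2 := hg1 (k + 1) (n + 1)
    have h3 : (Lk k n : ℝ) ≤ Lk (k + 1) (n + 1) := by exact_mod_cast Lk_succ k n
    push_cast at h1 h2 ⊢
    linarith
  have hmono : Monotone g := monotone_nat_of_le_succ hmono1
  have hone : g 0 = 1 := by
    apply le_antisymm
    · apply arch (n0 := 0) (c := g 0)
      intro n _
      have h1 := hg2 0 n
      have h2 : (Lk 0 n : ℝ) ≤ n := by exact_mod_cast (Lk_le_emax 0 n).trans (emax_one_le n)
      push_cast at h1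
      linarith
    · apply arch (n0 := 0) (c := g 0)
      intro n _
      have h1 := hg1 0 (n + 1)
      have h2 : (n : ℝ) ≤ Lk 0 (n + 1) := by exact_mod_cast Lk_zero n
      push_cast at h1
      linarith
  refine ⟨fun k => g (k - 1), by simpa using hone, fun m k _ hmk => hmono (by omega), ?_⟩
  intro k hk
  simp only
  set γ := g (k - 1) with hγdef
  have hk0 : (1 : ℝ) ≤ k := by exact_mod_cast hk
  have hkk : k - 1 + 1 = k := by omega
  have hγ1 : 1 ≤ γ := by
    rw [← hone]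
    exact hmono (Nat.zero_le _)
  have hkγ : γ ≤ k * γ := by nlinarith
  have hlow : ∀ n : ℕ, γ * n - 2 * k * γ ≤ (emax k n : ℝ) := by
    intro n
    have e1 := hg2 (k - 1) n
    have e2 : (Lk (k - 1) n : ℝ) ≤ emax k n := by
      have := Lk_le_emax (k - 1) n
      rw [hkk] at this
      exact_mod_cast this
    have e3 : (((2 * (k - 1) + 1 : ℕ)) : ℝ) ≤ 2 * k := by
      have : 2 * (k - 1) + 1 ≤ 2 * k := by omega
      exact_mod_cast this
    have e4 : γ * (n - 2 * k) ≤ γ * ((n : ℝ) - ((2 * (k - 1) + 1 : ℕ) : ℝ)) :=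
      mul_le_mul_of_nonneg_left (by linarith) (by linarith)
    linarith
  have hupp : ∀ n : ℕ, k < n → (emax k n : ℝ) ≤ γ * n + 5 * k * γ := by
    intro n hn
    have e1 := emax_le_Lk (k := k - 1) (n := n) (by omega)
    rw [hkk] at e1
    have e2 := hg1 (k - 1) (n + (4 * (k - 1) + 3))
    have e3 : (emax k n : ℝ) ≤ (Lk (k - 1) (n + (4 * (k - 1) + 3)) : ℝ) + 2 := by
      exact_mod_cast e1
    have e4 : ((n + (4 * (k - 1) + 3) : ℕ) : ℝ) = (n : ℝ) + 4 * k - 1 := by
      have : n + (4 * (k - 1) + 3) + 1 = n + 4 * k := by omega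
      have h5 : ((n + (4 * (k - 1) + 3) : ℕ) : ℝ) + 1 = (n : ℝ) + 4 * k := by exact_mod_cast this
      linarith
    rw [e4] at e2
    nlinarith
  refine ⟨?_, ?_, ?_⟩
  · intro n hn
    rw [abs_le]
    have e1 := hlow n
    have e2 := hupp n hn
    constructor
    · nlinarith
    · linarith
  · apply arch (n0 := 2 * k) (c := 8 * k * (5 * k * γ))
    intro n hn
    have e1 := emax_lower2 hk hn
    have e2 : (n : ℝ) * hmax (2 * k) ≤ 8 * k * emax k n := by exact_mod_cast e1
    have e3 := hupp n (by omega)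
    have e4 : 8 * (k : ℝ) * emax k n ≤ 8 * k * (γ * n + 5 * k * γ) :=
      mul_le_mul_of_nonneg_left e3 (by linarith)
    linarith
  · apply arch (n0 := 2 * k) (c := k * (2 * k * γ))
    intro n hn
    have e1 := emax_upper hk hn
    have e2 := hlow n
    have e3 : (0 : ℝ) ≤ emax k n := Nat.cast_nonneg _
    have e4 : (k : ℝ) * (γ * n - 2 * k * γ) ≤ k * emax k n :=
      mul_le_mul_of_nonneg_left e2 (by linarith)
    linarith

end Vale.Agent.P065.R2.H841
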