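import Vale.Agent.P065.R2.H841.Lim.Dd
import Vale.Agent.P065.R2.H841.Lim.Fek
import Vale.Agent.P065.R2.H841.Up

/-!
# P065: the maximum number of lower `k`-edges and `e_k(n)` (helper841)
-/

set_option autoImplicit false

namespace Vale.Agent.P065.R2.H841

open Finset Vale.Agent.P065.UB Vale.Agent.P065 Vale.Agent.P065.U.H792.Trans

/-- the maximum number of `k`-edges (exactly `k` points below) of good sets of `n` points -/
noncomputable def Lk (k n : ℕ) : ℕ := sSup {m | ∃ P : Finset Pt, Good P ∧ #P = n ∧ #(Ed P k) = m}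

theorem bdd_Lk (k n : ℕ) : BddAbove {m | ∃ P : Finset Pt, Good P ∧ #P = n ∧ #(Ed P k) = m} := by
  classical
  refine ⟨n * n, ?_⟩
  rintro m ⟨P, -, hP, rfl⟩
  unfold Ed
  refine (card_filter_le _ _).trans ?_
  rw [card_product, hP]

theorem le_Lk {P : Finset Pt} (hP : Good P) (k : ℕ) : #(Ed P k) ≤ Lk k #P :=
  le_csSup (bdd_Lk k #P) ⟨P, hP, rfl, rfl⟩

theorem Lk_wit (k n : ℕ) : ∃ P : Finset Pt, Good P ∧ #P = n ∧ #(Ed P k) = Lk k n := by
  classical
  have hne : {m | ∃ P : Finset Pt, Good P ∧ #P = n ∧ #(Ed P k) = m}.Nonempty :=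
    ⟨_, (range n).image par, good_par n, by rw [card_image_of_injective _ par_inj, card_range],
      rfl⟩
  exact Nat.sSup_mem hne (bdd_Lk k n)

theorem Lk_mono (k : ℕ) {m n : ℕ} (h : m ≤ n) : Lk k m ≤ Lk k n := by
  obtain ⟨P, h1, h2, h3⟩ := Lk_wit k m
  obtain ⟨B, h4, h5, h6⟩ := pad h1 (n - m)
  have h7 : #B = n := by omega
  rw [← h3, ← h7]
  exact (card_le_card (h6 k)).trans (le_Lk h4 k)

theorem le_Lk' {P : Finset Pt} (hP : Good P) (k : ℕ) {n : ℕ} (hn : #P ≤ n) :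
    #(Ed P k) ≤ Lk k n := (le_Lk hP k).trans (Lk_mono k hn)

theorem Lk_le_emax (k n : ℕ) : Lk k n ≤ emax (k + 1) n := by
  obtain ⟨P, h1, h2, h3⟩ := Lk_wit k n
  rw [← h3]
  exact (ed_le_kSet h1 k).trans (kSetNumber_le_emax h2 (genPos_of_good h1))

open Classical in
/-- the points with at most `k` points below in some direction -/
noncomputable def low (P : Finset Pt) (k : ℕ) : Finset Pt :=
  {p ∈ P | ∃ m, #{u ∈ P | ht m u < ht m p} ≤ k}

open Classical in
/-- the points with at most `k` points above in some direction -/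
noncomputable def upp (P : Finset Pt) (k : ℕ) : Finset Pt :=
  {p ∈ P | ∃ m, #{u ∈ P | ht m p < ht m u} ≤ k}

/-- the `k`-edges only see the points of `low P k` -/
theorem ed_low {P : Finset Pt} (k : ℕ) : Ed P k ⊆ Ed (low P k) k := by
  classical
  intro e he
  obtain ⟨h1, h2, h3, h4⟩ := mem_Ed.1 he
  unfold g0 at h4
  have hl : ∀ u ∈ P, ht (sl e.1 e.2) u ≤ ht (sl e.1 e.2) e.1 → u ∈ low P k := by
    intro u hu h
    refine mem_filter.2 ⟨hu, sl e.1 e.2, ?_⟩
    rw [← h4]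
    apply card_le_card
    intro v hv
    obtain ⟨hv1, hv2⟩ := mem_filter.1 hv
    exact mem_filter.2 ⟨hv1, lt_of_lt_of_le hv2 h⟩
  refine mem_Ed.2 ⟨hl _ h1 le_rfl, hl _ h2 (edge_ht e h3).le, h3, ?_⟩
  unfold g0
  refine Eq.trans ?_ h4
  congr 1
  ext u
  simp only [mem_filter]
  constructor
  · rintro ⟨hu, h⟩
    exact ⟨(mem_filter.1 hu).1, h⟩
  · rintro ⟨hu, h⟩
    exact ⟨hl u hu h.le, h⟩

theorem low_subset (P : Finset Pt) (k : ℕ) : low P k ⊆ P := by
  classical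
  exact filter_subset _ _

theorem ht_mir' (m : ℝ) (p : Pt) : ht m (mir p) = - ht (-m) p := by
  unfold ht mir
  ring

open Classical in
theorem card_low_mir (P : Finset Pt) (k : ℕ) : #(low (P.image mir) k) ≤ #(upp P k) := by
  rw [← card_image_of_injective (upp P k) mir_inj]
  apply card_le_card
  intro p hp
  obtain ⟨hp1, m, hm⟩ := mem_filter.1 hp
  obtain ⟨q, hq, rfl⟩ := mem_image.1 hp1
  refine mem_image_of_mem _ (mem_filter.2 ⟨hq, -m, ?_⟩)
  refine le_trans (le_of_eq ?_) hm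
  rw [← card_image_of_injective _ mir_inj]
  congr 1
  ext u
  simp only [mem_image, mem_filter]
  constructor
  · rintro ⟨v, ⟨hv1, hv2⟩, rfl⟩
    refine ⟨⟨v, hv1, rfl⟩, ?_⟩
    rw [ht_mir', ht_mir']
    linarith
  · rintro ⟨⟨v, hv1, rfl⟩, h⟩
    refine ⟨v, ⟨hv1, ?_⟩, rfl⟩
    rw [ht_mir', ht_mir'] at h
    linarith

end Vale.Agent.P065.R2.H841
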