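import Vale.Agent.P065.R2.H841.Lim.Lk
import Vale.Agent.P065.R2.H841.Lim.ParMem
import Vale.Agent.P065.R2.H841.Lim.H888.Row
import Vale.Agent.P065.R2.H841.Lim.H110.RowC
import Vale.Agent.P065.R2.H841.Lim.H576.RowA
import Vale.Agent.P065.R2.H841.Reg

/-!
# P065: `|e_k(n) - γ_k n| ≤ 8 k γ_k` (helper841)
-/

set_option autoImplicit false

namespace Vale.Agent.P065.R2.H841

open Finset Vale.Agent.P065.UB Vale.Agent.P065 Vale.Agent.P065.U.H792.Trans

/-- superadditivity -/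
theorem Lk_super (k m n : ℕ) : Lk k m + Lk k n ≤ Lk k (m + n) := by
  obtain ⟨A, a1, a2, a3⟩ := Lk_wit k m
  obtain ⟨B, b1, b2, b3⟩ := Lk_wit k n
  obtain ⟨C, c1, c2, c3⟩ := H576.specA a1 b1 k
  rw [← a3, ← b3]
  exact c3.trans (le_Lk' c1 k (by omega))

/-- the rate of the `k`-edges -/
theorem Lk_gamma (k : ℕ) : ∃ γ : ℝ, (∀ n, (Lk k n : ℝ) ≤ γ * n) ∧
    ∀ n : ℕ, γ * ((n : ℝ) - ((2 * k + 1 : ℕ) : ℝ)) ≤ Lk k n := by
  refine fek (Lk k) (2 * k + 1) (Lk_super k) ?_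
  intro M N hM
  obtain ⟨P, p1, p2, p3⟩ := Lk_wit k N
  have := H110.specC p1 k M hM (Lk k (M + (2 * k + 1)))
    (fun B hB hc => le_Lk' (H882.good_mono p1 hB) k (by omega))
  rw [p2, p3] at this
  exact this

/-- **`e_(k+1)(n) ≤ L_k(n + 4 k + 3) + 2`** -/
theorem emax_le_Lk {k n : ℕ} (hk : k + 2 ≤ n) : emax (k + 1) n ≤ Lk k (n + (4 * k + 3)) + 2 := by
  classical
  have hne : {m | ∃ P : Finset (ℝ × ℝ), P.card = n ∧ GenPos P ∧
      kSetNumber P (k + 1) = m}.Nonempty :=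
    ⟨_, (range n).image par, by rw [card_image_of_injective _ par_inj, card_range],
      genPos_of_good (good_par _), rfl⟩
  obtain ⟨P, hP, hg, hm⟩ := Nat.sSup_mem hne (bddAbove_emax (k + 1) n)
  obtain ⟨ε, hε⟩ := exists_shear P
  have h1 := good_shear hg hε
  have h2 := kSetNumber_shear (P := P) ε (k + 1)
  have hn : #(P.image (sh ε)) = n := by rw [card_image_sh, hP]
  set Q := P.image (sh ε) with hQ
  have h3 := kSetNumber_le h1 (k := k) (by omega)
  have h4 := card_Ed_mir h1 (k := k) (by omega)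
  have h5 : #(Ed Q k) ≤ Lk k #(low Q k) :=
    (card_le_card (ed_low k)).trans (le_Lk (H882.good_mono h1 (low_subset _ _)) k)
  have h6 : #(Ed (Q.image mir) k) ≤ Lk k #(upp Q k) :=
    (card_le_card (ed_low k)).trans ((le_Lk (H882.good_mono (good_mir h1) (low_subset _ _)) k).trans
      (Lk_mono k (card_low_mir Q k)))
  have h7 := Lk_super k #(low Q k) #(upp Q k)
  have h8 : #(low Q k) + #(upp Q k) ≤ n + (4 * k + 3) := by
    rw [← card_union_add_card_inter]
    have e1 : #(low Q k ∪ upp Q k) ≤ n := by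
      rw [← hn]
      exact card_le_card (union_subset (filter_subset _ _) (filter_subset _ _))
    have e2 : #(low Q k ∩ upp Q k) ≤ 4 * k + 3 := by
      refine le_trans (card_le_card ?_) (H888.specB h1 k)
      intro p hp
      obtain ⟨f1, f2⟩ := mem_inter.1 hp
      exact mem_filter.2 ⟨(mem_filter.1 f1).1, (mem_filter.1 f1).2, (mem_filter.1 f2).2⟩
    omega
  have h9 := Lk_mono k h8
  have h10 : emax (k + 1) n = kSetNumber P (k + 1) := hm.symm
  omega

theorem arch {a b c : ℝ} {n0 : ℕ} (h : ∀ n : ℕ, n0 ≤ n → a * n ≤ b * n + c) : a ≤ b := by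
  by_contra hcon
  push Not at hcon
  obtain ⟨m, hm⟩ := exists_nat_gt (c / (a - b))
  have h1 := h (max n0 m) (le_max_left _ _)
  have h2 : (m : ℝ) ≤ ((max n0 m : ℕ) : ℝ) := by exact_mod_cast le_max_right n0 m
  have h3 : c / (a - b) < ((max n0 m : ℕ) : ℝ) := lt_of_lt_of_le hm h2
  rw [div_lt_iff₀ (sub_pos.2 hcon)] at h3
  have h4 : ((max n0 m : ℕ) : ℝ) * (a - b) = a * ((max n0 m : ℕ) : ℝ) -
    b * ((max n0 m : ℕ) : ℝ) := by ring
  linarith

/-- **the linear law for `k`-sets** -/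
theorem linear_law {k : ℕ} (hk : 1 ≤ k) : ∃ γ : ℝ, 0 < γ ∧
    (∀ n : ℕ, k < n → |(emax k n : ℝ) - γ * n| ≤ 8 * k * γ) ∧
    (hmax (2 * k) : ℝ) ≤ 8 * k * γ ∧ k * γ ≤ 52 * hmax (2 * k) := by
  classical
  obtain ⟨γ, hg1, hg2⟩ := Lk_gamma (k - 1)
  have hk0 : (1 : ℝ) ≤ k := by exact_mod_cast hk
  have hkk : k - 1 + 1 = k := by omega
  have h1 : (1 : ℝ) ≤ γ * ((k : ℝ) + 1) := by
    have e1 := hg1 (k + 1)
    have e2 : 1 ≤ Lk (k - 1) (k + 1) := by
      have hmem : (par 0, par k) ∈ Ed ((range (k + 1)).image par) (k - 1) := par_mem hk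
      have e3 := le_Lk' (good_par (k + 1)) (k - 1) (n := k + 1)
        (by rw [card_image_of_injective _ par_inj, card_range])
      exact (Nat.succ_le_of_lt (card_pos.2 ⟨_, hmem⟩)).trans e3
    have e4 : (1 : ℝ) ≤ (Lk (k - 1) (k + 1) : ℝ) := by exact_mod_cast e2
    push_cast at e1
    linarith
  have hγ : 0 < γ := by
    by_contra hcon
    push Not at hcon
    have : γ * ((k : ℝ) + 1) ≤ 0 := mul_nonpos_of_nonpos_of_nonneg hcon (by linarith)
    linarith
  have h2 : (1 : ℝ) ≤ 2 * k * γ := by nlinarith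
  have hlow : ∀ n : ℕ, γ * n - 2 * k * γ ≤ (emax k n : ℝ) := by
    intro n
    have e1 := hg2 n
    have e2 : (Lk (k - 1) n : ℝ) ≤ emax k n := by
      have := Lk_le_emax (k - 1) n
      rw [hkk] at this
      exact_mod_cast this
    have e3 : (((2 * (k - 1) + 1 : ℕ)) : ℝ) ≤ 2 * k := by
      have : 2 * (k - 1) + 1 ≤ 2 * k := by omega
      exact_mod_cast this
    have e4 : γ * (n - 2 * k) ≤ γ * ((n : ℝ) - ((2 * (k - 1) + 1 : ℕ) : ℝ)) :=
      mul_le_mul_of_nonneg_left (by linarith) hγ.le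
    linarith
  have hupp : ∀ n : ℕ, k < n → (emax k n : ℝ) ≤ γ * n + 8 * k * γ := by
    intro n hn
    have e1 := emax_le_Lk (k := k - 1) (n := n) (by omega)
    rw [hkk] at e1
    have e2 := hg1 (n + (4 * (k - 1) + 3))
    have e3 : (emax k n : ℝ) ≤ (Lk (k - 1) (n + (4 * (k - 1) + 3)) : ℝ) + 2 := by
      exact_mod_cast e1
    have e4 : ((n + (4 * (k - 1) + 3) : ℕ) : ℝ) ≤ (n : ℝ) + 4 * k := by
      have : n + (4 * (k - 1) + 3) ≤ n + 4 * k := by omega
      exact_mod_cast this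
    have e5 : γ * ((n + (4 * (k - 1) + 3) : ℕ) : ℝ) ≤ γ * ((n : ℝ) + 4 * k) :=
      mul_le_mul_of_nonneg_left e4 hγ.le
    linarith
  refine ⟨γ, hγ, ?_, ?_, ?_⟩
  · intro n hn
    rw [abs_le]
    have e1 := hlow n
    have e2 := hupp n hn
    constructor
    · nlinarith
    · linarith
  · apply arch (n0 := 2 * k) (c := 8 * k * (8 * k * γ))
    intro n hn
    have e1 := emax_lower2 hk hn
    have e2 : (n : ℝ) * hmax (2 * k) ≤ 8 * k * emax k n := by exact_mod_cast e1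
    have e3 := hupp n (by omega)
    have e4 : 8 * (k : ℝ) * emax k n ≤ 8 * k * (γ * n + 8 * k * γ) :=
      mul_le_mul_of_nonneg_left e3 (by linarith)
    linarith
  · apply arch (n0 := 2 * k) (c := k * (2 * k * γ))
    intro n hn
    have e1 := emax_upper hk hn
    have e2 := hlow n
    have e3 : (0 : ℝ) ≤ emax k n := Nat.cast_nonneg _
    have e4 : (k : ℝ) * (γ * n - 2 * k * γ) ≤ k * emax k n :=
      mul_le_mul_of_nonneg_left e2 (by linarith)
    linarith

end Vale.Agent.P065.R2.H841
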