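import Vale.Agent.P065.R2.H841.Lim.Main

/-!
# P065: the rates `γ_k` are nondecreasing in `k` (helper841)
-/

set_option autoImplicit false

namespace Vale.Agent.P065.R2.H841

open Finset Vale.Agent.P065.UB Vale.Agent.P065 Vale.Agent.P065.U.H792.Trans

/-- one more point, far below -/
theorem pad_below {B : Finset Pt} (hB : Good B) :
    ∃ B' : Finset Pt, Good B' ∧ #B' = #B + 1 ∧ ∀ k, Ed B k ⊆ Ed B' (k + 1) := by
  classical
  obtain ⟨M, hM⟩ := (B.image Prod.fst).exists_le
  obtain ⟨Y, hY⟩ := ((B ×ˢ B).image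
    (fun e : Pt × Pt => -(ht (sl e.1 e.2) e.1 + sl e.1 e.2 * (M + 1)))).exists_le
  have hx : ∀ p ∈ B, p.1 < M + 1 := by
    intro p hp
    have := hM p.1 (mem_image_of_mem _ hp)
    linarith
  set z : Pt := (M + 1, -(Y + 1)) with hz
  have hz1 : z.1 = M + 1 := rfl
  have hz2 : z.2 = -(Y + 1) := rfl
  have hbelow : ∀ p ∈ B, ∀ q ∈ B, ht (sl p q) z < ht (sl p q) p := by
    intro p hp q hq
    have h1 := hY _ (mem_image_of_mem (fun e : Pt × Pt => -(ht (sl e.1 e.2) e.1 +
      sl e.1 e.2 * (M + 1))) (mem_product.2 ⟨hp, hq⟩ : (p, q) ∈ B ×ˢ B))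
    simp only at h1
    have h2 : ht (sl p q) z = -(Y + 1) - sl p q * (M + 1) := by
      unfold ht
      rw [hz1, hz2]
    rw [h2]
    linarith
  have hzB : z ∉ B := by
    intro h
    have := hx z h
    rw [hz1] at this
    exact lt_irrefl _ this
  have key : ∀ (m : ℝ), ∀ p ∈ B, ∀ q ∈ B, p ≠ q → ht m p = ht m q → ht m z < ht m p := by
    intro m p hp q hq hpq h
    have hne : p.1 ≠ q.1 := fun h => hpq (hB.xinj p hp q hq h)
    have h1 : sl p q = m := (ht_eq_iff hne m).1 h.symm
    rw [← h1]
    exact hbelow p hp q hq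
  refine ⟨insert z B, ⟨?_, ?_⟩, ?_, ?_⟩
  · intro p hp q hq h
    rcases mem_insert.1 hp with rfl | hp
    · rcases mem_insert.1 hq with rfl | hq
      · rfl
      · have := hx q hq
        rw [← h, hz1] at this
        exact absurd this (lt_irrefl _)
    · rcases mem_insert.1 hq with rfl | hq
      · have := hx p hp
        rw [h, hz1] at this
        exact absurd this (lt_irrefl _)
      · exact hB.xinj p hp q hq h
  · intro m a ha b hb c hc hab hac hbc h1 h2
    rcases mem_insert.1 ha with ha' | ha'
    · rcases mem_insert.1 hb with hb' | hb'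
      · exact hab (ha'.trans hb'.symm)
      rcases mem_insert.1 hc with hc' | hc'
      · exact hac (ha'.trans hc'.symm)
      have := key m b hb' c hc' hbc (h1.symm.trans h2)
      rw [← h1, ha'] at this
      exact lt_irrefl _ this
    · rcases mem_insert.1 hb with hb' | hb'
      · rcases mem_insert.1 hc with hc' | hc'
        · exact hbc (hb'.trans hc'.symm)
        have := key m a ha' c hc' hac h2
        rw [h1, hb'] at this
        exact lt_irrefl _ this
      · rcases mem_insert.1 hc with hc' | hc'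
        · have := key m a ha' b hb' hab h1
          rw [h2, hc'] at this
          exact lt_irrefl _ this
        · exact hB.gen m a ha' b hb' c hc' hab hac hbc h1 h2
  · rw [card_insert_of_notMem hzB]
  · intro k e he
    obtain ⟨h1, h2, h3, h4⟩ := mem_Ed.1 he
    refine mem_Ed.2 ⟨mem_insert_of_mem h1, mem_insert_of_mem h2, h3, ?_⟩
    rw [← h4]
    unfold g0
    rw [Finset.filter_insert, if_pos (hbelow e.1 h1 e.2 h2), card_insert_of_notMem]
    intro h
    exact hzB (mem_filter.1 h).1

theorem Lk_succ (k n : ℕ) : Lk k n ≤ Lk (k + 1) (n + 1) := by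
  obtain ⟨P, h1, h2, h3⟩ := Lk_wit k n
  obtain ⟨B, h4, h5, h6⟩ := pad_below h1
  have h7 : #B = n + 1 := by omega
  rw [← h3, ← h7]
  exact (card_le_card (h6 k)).trans (le_Lk h4 (k + 1))

/-- the lower convex hull of `n` points of the parabola -/
theorem Lk_zero (n : ℕ) : n ≤ Lk 0 (n + 1) := by
  classical
  have h0 := le_Lk' (good_par (n + 1)) 0 (n := n + 1)
    (by rw [card_image_of_injective _ par_inj, card_range])
  refine le_trans ?_ h0
  have h1 : #((range n).image fun i => (par i, par (i + 1))) = n := by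
    rw [card_image_of_injOn, card_range]
    intro i _ j _ h
    exact par_inj (congrArg Prod.fst h)
  rw [← h1]
  conv_lhs => rw [h1]
  rw [← h1]
  apply card_le_card
  intro e he
  obtain ⟨i, hi, rfl⟩ := mem_image.1 he
  have hi' := mem_range.1 hi
  rw [h1]
  refine mem_Ed.2 ⟨mem_image_of_mem _ (mem_range.2 (by omega)),
    mem_image_of_mem _ (mem_range.2 (by omega)), ?_, ?_⟩
  · show ((i : ℕ) : ℝ) < ((i + 1 : ℕ) : ℝ)
    push_cast
    linarith
  · have hs : sl (par i) (par (i + 1)) = 2 * i + 1 := by
      unfold sl par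
      push_cast
      field_simp
      ring
    unfold g0
    simp only
    rw [hs, card_eq_zero, filter_eq_empty_iff]
    intro u hu
    obtain ⟨j, _, rfl⟩ := mem_image.1 hu
    rw [ht_par, ht_par, not_lt]
    have hij : (0 : ℝ) ≤ ((j : ℝ) - i) * ((j : ℝ) - i - 1) := by
      rcases Nat.lt_or_ge i j with h | h
      · have : (i : ℝ) + 1 ≤ j := by exact_mod_cast h
        exact mul_nonneg (by linarith) (by linarith)
      · have : (j : ℝ) ≤ i := by exact_mod_cast h
        exact mul_nonneg_of_nonpos_of_nonpos (by linarith) (by linarith)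
    nlinarith

end Vale.Agent.P065.R2.H841
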